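import Mathlib
import Crest.Agent.Helper10.Area

set_option autoImplicit false
open MeasureTheory
open scoped ENNReal

namespace Crest.Agent.Helper3

local notation "E3" => EuclideanSpace ℝ (Fin 3)

/-- A bounded subset of a plane `u^⊥` of `ℝ³` has finite Euclidean area. -/
theorem plane_bounded_lt_top (u : E3) (hu : ‖u‖ = 1) (B : Set E3) (hB : Bornology.IsBounded B)
    (hBu : ∀ x ∈ B, inner ℝ x u = 0) : μHE[2] B < ⊤ := by
  have hu0 : u ≠ 0 := by
    intro h
    rw [h, norm_zero] at hu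
    exact zero_ne_one hu
  have hfact : Fact (Module.finrank ℝ E3 = 2 + 1) := ⟨by simp⟩
  have hfin : Module.finrank ℝ ((ℝ ∙ u)ᗮ : Submodule ℝ E3) = 2 :=
    Submodule.finrank_orthogonal_span_singleton (𝕜 := ℝ) (E := E3) (n := 2) hu0
  set S : Submodule ℝ E3 := (ℝ ∙ u)ᗮ with hS
  have hBS : B ⊆ (S : Set E3) := by
    intro x hx
    exact Submodule.mem_orthogonal_singleton_iff_inner_left.mpr (hBu x hx)
  have hBeq : B = (Subtype.val : S → E3) '' ((Subtype.val : S → E3) ⁻¹' B) := by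
    rw [Set.image_preimage_eq_inter_range, Subtype.range_coe]
    exact (Set.inter_eq_left.mpr hBS).symm
  rw [hBeq, isometry_subtype_coe.euclideanHausdorffMeasure_image]
  have hvol : (μHE[2] : Measure S) = volume := by
    have := InnerProductSpace.euclideanHausdorffMeasure_eq_volume (V := S)
    rwa [hfin] at this
  rw [hvol]
  apply Bornology.IsBounded.measure_lt_top
  obtain ⟨C, hC⟩ := isBounded_iff_forall_norm_le.mp hB
  exact isBounded_iff_forall_norm_le.mpr ⟨C, fun x hx => by simpa using hC _ hx⟩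

/-- The coordinate `3 × 3` determinant of three vectors of `ℝ³`. -/
def det3 (v x y : E3) : ℝ :=
  v 0 * (x 1 * y 2 - x 2 * y 1) + v 1 * (x 2 * y 0 - x 0 * y 2) + v 2 * (x 0 * y 1 - x 1 * y 0)

/-- The map `y ↦ y - ⟪y, v⟫ v` as a linear map. -/
noncomputable def proj (v : E3) : E3 →ₗ[ℝ] E3 :=
  LinearMap.id - (innerₛₗ ℝ v).smulRight v

theorem proj_apply (v y : E3) : proj v y = y - inner ℝ y v • v := by
  simp [proj, real_inner_comm]

theorem proj_eq_fun (v : E3) : (fun y : E3 => y - inner ℝ y v • v) = proj v := by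
  funext y
  rw [proj_apply]

theorem inner_proj_proj (v x y : E3) (hv : ‖v‖ = 1) :
    inner ℝ (proj v x) (proj v y) = inner ℝ x y - inner ℝ x v * inner ℝ y v := by
  simp only [proj_apply, inner_sub_left, inner_sub_right, inner_smul_left, inner_smul_right,
    real_inner_self_eq_norm_sq, hv, real_inner_comm v y, RCLike.conj_to_real]
  ring

theorem norm_proj_sq (v x : E3) (hv : ‖v‖ = 1) :
    ‖proj v x‖ ^ 2 = ‖x‖ ^ 2 - inner ℝ x v ^ 2 := by
  rw [← real_inner_self_eq_norm_sq, inner_proj_proj v x x hv, real_inner_self_eq_norm_sq]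
  ring

theorem inner_proj_self (v x : E3) (hv : ‖v‖ = 1) : inner ℝ (proj v x) v = 0 := by
  simp only [proj_apply, inner_sub_left, inner_smul_left, real_inner_self_eq_norm_sq, hv,
    RCLike.conj_to_real]
  ring

/-- The Gram determinant of two projected vectors is the square of a `3 × 3` determinant. -/
theorem gram_proj (v x y : E3) (hv : ‖v‖ = 1) :
    ‖proj v x‖ ^ 2 * ‖proj v y‖ ^ 2 - inner ℝ (proj v x) (proj v y) ^ 2 = det3 v x y ^ 2 := by
  have hq : v 0 ^ 2 + v 1 ^ 2 + v 2 ^ 2 = 1 := by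
    have := EuclideanSpace.real_norm_sq_eq v
    rw [hv, Fin.sum_univ_three] at this
    linarith
  rw [norm_proj_sq v x hv, norm_proj_sq v y hv, inner_proj_proj v x y hv]
  simp only [EuclideanSpace.real_norm_sq_eq, PiLp.inner_apply, Fin.sum_univ_three, det3,
    RCLike.inner_apply, conj_trivial]
  linear_combination
    (-((x 0 ^ 2 + x 1 ^ 2 + x 2 ^ 2) * (y 0 ^ 2 + y 1 ^ 2 + y 2 ^ 2)
      - (x 0 * y 0 + x 1 * y 1 + x 2 * y 2) ^ 2)) * hq

/-- The area formula for (possibly degenerate) triangles in `ℝ³`; supplied by the area kit. -/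
def TriFormula : Prop :=
  ∀ p q r : E3, μHE[2] (convexHull ℝ {p, q, r}) =
    ENNReal.ofReal (Real.sqrt (‖q - p‖ ^ 2 * ‖r - p‖ ^ 2 - inner ℝ (q - p) (r - p) ^ 2) / 2)

/-- Area of a projected triangle. -/
theorem proj_tri (htri : TriFormula) (v A B C : E3) (hv : ‖v‖ = 1) :
    μHE[2] (convexHull ℝ {proj v A, proj v B, proj v C}) =
      ENNReal.ofReal (|det3 v (B - A) (C - A)| / 2) := by
  rw [htri, ← map_sub, ← map_sub, gram_proj v _ _ hv, Real.sqrt_sq_eq_abs]

/-- A segment has zero area. -/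
theorem segment_null (htri : TriFormula) (A B : E3) : μHE[2] (segment ℝ A B) = 0 := by
  have h : segment ℝ A B = convexHull ℝ {A, B, B} := by
    rw [← convexHull_pair]
    simp
  rw [h, htri, real_inner_self_eq_norm_sq]
  have h0 : ‖B - A‖ ^ 2 * ‖B - A‖ ^ 2 - (‖B - A‖ ^ 2) ^ 2 = 0 := by ring
  rw [h0]
  simp

/-- Two triangles on a common edge, on opposite sides of it, have additive areas. -/
theorem tri_union (htri : TriFormula) (A B C D n : E3) (hB : inner ℝ n (B - A) = 0)
    (hC : 0 < inner ℝ n (C - A)) (hD : inner ℝ n (D - A) ≤ 0) :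
    μHE[2] (convexHull ℝ {A, B, C} ∪ convexHull ℝ {A, B, D}) =
      μHE[2] (convexHull ℝ {A, B, C}) + μHE[2] (convexHull ℝ {A, B, D}) := by
  have hmeas : MeasurableSet (convexHull ℝ ({A, B, D} : Set E3)) :=
    (Set.Finite.isClosed_convexHull ℝ (Set.toFinite _)).measurableSet
  have hlin : IsLinearMap ℝ (fun x : E3 => inner ℝ n x) :=
    ⟨fun x y => inner_add_right n x y, fun c x => by simp [inner_smul_right]⟩
  have hnull : μHE[2] (convexHull ℝ {A, B, C} ∩ convexHull ℝ {A, B, D}) = 0 := by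
    apply measure_mono_null _ (segment_null htri A B)
    rintro x ⟨hx1, hx2⟩
    -- on the second triangle the functional is `≤` its value at `A`
    have h2 : convexHull ℝ ({A, B, D} : Set E3) ⊆ {x | inner ℝ n x ≤ inner ℝ n A} := by
      apply convexHull_min _ (convex_halfSpace_le hlin _)
      intro y hy
      simp only [Set.mem_insert_iff, Set.mem_singleton_iff] at hy
      change inner ℝ n y ≤ inner ℝ n A
      rw [inner_sub_right] at hB hD
      rcases hy with rfl | rfl | rfl <;> linarith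
    have hx2' : inner ℝ n x ≤ inner ℝ n A := h2 hx2
    -- write `x` as a point of a segment from `C` to a point of the segment `A B`
    have h1 : ({A, B, C} : Set E3) = insert C {A, B} := by
      ext y
      simp only [Set.mem_insert_iff, Set.mem_singleton_iff]
      tauto
    rw [h1, convexHull_insert (Set.insert_nonempty _ _), convexHull_pair] at hx1
    obtain ⟨c, hc, y, hy, hxy⟩ := mem_convexJoin.mp hx1
    rw [Set.mem_singleton_iff] at hc
    subst hc
    obtain ⟨a, b, ha, hb, hab, rfl⟩ := hxy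
    have hyA : inner ℝ n y = inner ℝ n A := by
      obtain ⟨a', b', ha', hb', hab', rfl⟩ := hy
      rw [inner_sub_right] at hB
      rw [inner_add_right, inner_smul_right, inner_smul_right]
      have : a' = 1 - b' := by linarith
      rw [this]
      linear_combination b' * hB
    have hxv : inner ℝ n (a • c + b • y) = inner ℝ n A + a * inner ℝ n (c - A) := by
      rw [inner_add_right, inner_smul_right, inner_smul_right, hyA, inner_sub_right]
      have : b = 1 - a := by linarith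
      rw [this]
      ring
    rw [hxv] at hx2'
    have ha0 : a = 0 := by
      by_contra hne
      have hapos : 0 < a := lt_of_le_of_ne ha (Ne.symm hne)
      have := mul_pos hapos hC
      linarith
    have hb1 : b = 1 := by linarith
    rw [ha0, hb1, zero_smul, zero_add, one_smul]
    exact hy
  rw [← measure_union_add_inter _ hmeas, hnull, add_zero]

/-- The vector `v × e`. -/
noncomputable def crossv (v e : E3) : E3 :=
  !₂[v 1 * e 2 - v 2 * e 1, v 2 * e 0 - v 0 * e 2, v 0 * e 1 - v 1 * e 0]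

theorem inner_crossv_proj (v e y : E3) : inner ℝ (crossv v e) (proj v y) = det3 v e y := by
  simp only [proj_apply, crossv, det3, PiLp.inner_apply, Fin.sum_univ_three, RCLike.inner_apply,
    conj_trivial, PiLp.sub_apply, PiLp.smul_apply, smul_eq_mul,
    Matrix.cons_val_zero, Matrix.cons_val_one, Matrix.cons_val_two, Matrix.head_cons,
    Matrix.tail_cons]
  ring

theorem abs_sub_le_of_mul_nonneg (a b : ℝ) (h : 0 ≤ a * b) : |b - a| ≤ |a| ∨ |b - a| ≤ |b| := by
  have hab : |a| * |b| = a * b := by rw [← abs_mul, abs_of_nonneg h]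
  rcases le_total |a| |b| with h1 | h1
  · right
    apply sq_le_sq.mp
    nlinarith [sq_abs a, sq_abs b, mul_le_mul_of_nonneg_left h1 (abs_nonneg a)]
  · left
    apply sq_le_sq.mp
    nlinarith [sq_abs a, sq_abs b, mul_le_mul_of_nonneg_left h1 (abs_nonneg b)]

/-- The projection of a tetrahedron contains a quadrilateral whose diagonals are the
projections of two opposite edges. -/
theorem proj_quad (htri : TriFormula) (v A B C D : E3) (hv : ‖v‖ = 1) :
    ENNReal.ofReal (|det3 v (B - A) (D - C)| / 2) ≤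
      μHE[2] (convexHull ℝ {proj v A, proj v B, proj v C, proj v D}) := by
  set dC := det3 v (B - A) (C - A) with hdC
  set dD := det3 v (B - A) (D - A) with hdD
  have hdet : det3 v (B - A) (D - C) = dD - dC := by
    simp only [hdC, hdD, det3, PiLp.sub_apply]
    ring
  have hTC : convexHull ℝ {proj v A, proj v B, proj v C} ⊆
      convexHull ℝ {proj v A, proj v B, proj v C, proj v D} := by
    apply convexHull_mono
    intro x hx
    simp only [Set.mem_insert_iff, Set.mem_singleton_iff] at hx ⊢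
    tauto
  have hTD : convexHull ℝ {proj v A, proj v B, proj v D} ⊆
      convexHull ℝ {proj v A, proj v B, proj v C, proj v D} := by
    apply convexHull_mono
    intro x hx
    simp only [Set.mem_insert_iff, Set.mem_singleton_iff] at hx ⊢
    tauto
  have hmC := proj_tri htri v A B C hv
  have hmD := proj_tri htri v A B D hv
  rw [← hdC] at hmC
  rw [← hdD] at hmD
  rw [hdet]
  have hnB : inner ℝ (crossv v (B - A)) (proj v B - proj v A) = 0 := by
    rw [← map_sub, inner_crossv_proj]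
    simp only [det3]
    ring
  have hnC : inner ℝ (crossv v (B - A)) (proj v C - proj v A) = dC := by
    rw [← map_sub, inner_crossv_proj]
  have hnD : inner ℝ (crossv v (B - A)) (proj v D - proj v A) = dD := by
    rw [← map_sub, inner_crossv_proj]
  rcases le_or_gt 0 (dC * dD) with hs | hs
  · rcases abs_sub_le_of_mul_nonneg dC dD hs with h | h
    · calc ENNReal.ofReal (|dD - dC| / 2) ≤ ENNReal.ofReal (|dC| / 2) :=
            ENNReal.ofReal_le_ofReal (by linarith)
        _ = μHE[2] (convexHull ℝ {proj v A, proj v B, proj v C}) := hmC.symm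
        _ ≤ _ := measure_mono hTC
    · calc ENNReal.ofReal (|dD - dC| / 2) ≤ ENNReal.ofReal (|dD| / 2) :=
            ENNReal.ofReal_le_ofReal (by linarith)
        _ = μHE[2] (convexHull ℝ {proj v A, proj v B, proj v D}) := hmD.symm
        _ ≤ _ := measure_mono hTD
  · have hle : ENNReal.ofReal (|dD - dC| / 2) ≤ ENNReal.ofReal (|dC| / 2) + ENNReal.ofReal (|dD| / 2) := by
      rw [← ENNReal.ofReal_add (by positivity) (by positivity)]
      apply ENNReal.ofReal_le_ofReal
      have := abs_sub dD dC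
      linarith
    rcases lt_or_ge 0 dC with hCpos | hCneg
    · have hDneg : dD ≤ 0 := by
        by_contra hcon
        have := mul_pos hCpos (not_le.mp hcon)
        linarith
      have hadd := tri_union htri (proj v A) (proj v B) (proj v C) (proj v D)
        (crossv v (B - A)) hnB (by rw [hnC]; exact hCpos) (by rw [hnD]; exact hDneg)
      calc ENNReal.ofReal (|dD - dC| / 2) ≤ ENNReal.ofReal (|dC| / 2) + ENNReal.ofReal (|dD| / 2) := hle
        _ = μHE[2] (convexHull ℝ {proj v A, proj v B, proj v C} ∪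
              convexHull ℝ {proj v A, proj v B, proj v D}) := by rw [hadd, hmC, hmD]
        _ ≤ _ := measure_mono (Set.union_subset hTC hTD)
    · have hDpos : 0 < dD := by
        by_contra hcon
        have := mul_nonneg_of_nonpos_of_nonpos hCneg (not_lt.mp hcon)
        linarith
      have hadd := tri_union htri (proj v A) (proj v B) (proj v D) (proj v C)
        (crossv v (B - A)) hnB (by rw [hnD]; exact hDpos) (by rw [hnC]; exact hCneg)
      calc ENNReal.ofReal (|dD - dC| / 2) ≤ ENNReal.ofReal (|dC| / 2) + ENNReal.ofReal (|dD| / 2) := hle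
        _ = μHE[2] (convexHull ℝ {proj v A, proj v B, proj v D} ∪
              convexHull ℝ {proj v A, proj v B, proj v C}) := by rw [hadd, hmC, hmD, add_comm]
        _ ≤ _ := measure_mono (Set.union_subset hTD hTC)

/-- Elementary inequality: on the unit sphere, `max (2 ‖x‖_∞) ‖x‖_1 ≥ √2`. -/
theorem core_ineq (a b c m : ℝ) (h : a ^ 2 + b ^ 2 + c ^ 2 = 1) (ha : 2 * |a| ≤ m)
    (hb : 2 * |b| ≤ m) (hc : 2 * |c| ≤ m) (h1 : |a + b + c| ≤ m) (h2 : |a + b - c| ≤ m)
    (h3 : |a - b + c| ≤ m) (h4 : |a - b - c| ≤ m) : 2 ≤ m ^ 2 := by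
  have hsum : |a| + |b| + |c| ≤ m := by
    have e1 := le_abs_self (a + b + c)
    have e2 := neg_abs_le (a + b + c)
    have e3 := le_abs_self (a + b - c)
    have e4 := neg_abs_le (a + b - c)
    have e5 := le_abs_self (a - b + c)
    have e6 := neg_abs_le (a - b + c)
    have e7 := le_abs_self (a - b - c)
    have e8 := neg_abs_le (a - b - c)
    rcases abs_cases a with ⟨ha', _⟩ | ⟨ha', _⟩ <;> rcases abs_cases b with ⟨hb', _⟩ | ⟨hb', _⟩ <;>
      rcases abs_cases c with ⟨hc', _⟩ | ⟨hc', _⟩ <;> rw [ha', hb', hc'] <;> linarith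
  set x := |a| with hx
  set y := |b| with hy
  set z := |c| with hz
  have hx0 : 0 ≤ x := abs_nonneg a
  have hy0 : 0 ≤ y := abs_nonneg b
  have hz0 : 0 ≤ z := abs_nonneg c
  have hxyz : x ^ 2 + y ^ 2 + z ^ 2 = 1 := by
    rw [hx, hy, hz, sq_abs, sq_abs, sq_abs]
    exact h
  have hm0 : 0 ≤ m := by linarith
  by_contra hcon
  have hm2 : m ^ 2 < 2 := not_le.mp hcon
  have hx2 : x ^ 2 < 1 / 2 := by nlinarith
  have hy2 : y ^ 2 < 1 / 2 := by nlinarith
  have hz2 : z ^ 2 < 1 / 2 := by nlinarith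
  have hs2 : (x + y + z) ^ 2 < 2 := by nlinarith
  have hw : x * y + y * z + z * x < 1 / 2 := by nlinarith
  have hw0 : 0 ≤ x * y + y * z + z * x := by positivity
  have hpq : 1 / 4 ≤ x ^ 2 * y ^ 2 + y ^ 2 * z ^ 2 + z ^ 2 * x ^ 2 := by
    nlinarith [mul_pos (sub_pos.mpr hx2) (sub_pos.mpr hy2), mul_pos (sub_pos.mpr hy2) (sub_pos.mpr hz2),
      mul_pos (sub_pos.mpr hz2) (sub_pos.mpr hx2)]
  have hcross : x ^ 2 * y ^ 2 + y ^ 2 * z ^ 2 + z ^ 2 * x ^ 2 ≤ (x * y + y * z + z * x) ^ 2 := by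
    have t1 : 0 ≤ x * y * (y * z) := by positivity
    have t2 : 0 ≤ y * z * (z * x) := by positivity
    have t3 : 0 ≤ z * x * (x * y) := by positivity
    nlinarith
  nlinarith

theorem image_K0 (v : E3) : (fun y : E3 => y - inner ℝ y v • v) ''
      convexHull ℝ {!₂[1, 0, 0], !₂[-1, 0, 0], !₂[0, 1, Real.sqrt 2], !₂[0, -1, Real.sqrt 2]} =
    convexHull ℝ {proj v !₂[1, 0, 0], proj v !₂[-1, 0, 0], proj v !₂[0, 1, Real.sqrt 2],
      proj v !₂[0, -1, Real.sqrt 2]} := by
  rw [proj_eq_fun, LinearMap.image_convexHull]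
  simp only [Set.image_insert_eq, Set.image_singleton]

theorem sqrt_two_le_proj_of (htri : TriFormula) (v : E3) (hv : ‖v‖ = 1) :
    ENNReal.ofReal (Real.sqrt 2) ≤ μHE[2] ((fun y : E3 => y - inner ℝ y v • v) ''
      convexHull ℝ {!₂[1, 0, 0], !₂[-1, 0, 0], !₂[0, 1, Real.sqrt 2], !₂[0, -1, Real.sqrt 2]}) := by
  rw [image_K0]
  set P1 : E3 := !₂[1, 0, 0] with hP1
  set P2 : E3 := !₂[-1, 0, 0] with hP2
  set P3 : E3 := !₂[0, 1, Real.sqrt 2] with hP3
  set P4 : E3 := !₂[0, -1, Real.sqrt 2] with hP4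
  set Q := convexHull ℝ {proj v P1, proj v P2, proj v P3, proj v P4} with hQ
  have hs2 : Real.sqrt 2 ^ 2 = 2 := Real.sq_sqrt (by norm_num)
  have hs0 : 0 < Real.sqrt 2 := Real.sqrt_pos.mpr (by norm_num)
  have hq : v 0 ^ 2 + v 1 ^ 2 + v 2 ^ 2 = 1 := by
    have := EuclideanSpace.real_norm_sq_eq v
    rw [hv, Fin.sum_univ_three] at this
    linarith
  -- the four faces
  have sub3 : ∀ a b c : E3, a ∈ ({proj v P1, proj v P2, proj v P3, proj v P4} : Set E3) →
      b ∈ ({proj v P1, proj v P2, proj v P3, proj v P4} : Set E3) →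
      c ∈ ({proj v P1, proj v P2, proj v P3, proj v P4} : Set E3) →
      μHE[2] (convexHull ℝ {a, b, c}) ≤ μHE[2] Q := by
    intro a b c ha hb hc
    apply measure_mono
    apply convexHull_mono
    intro x hx
    simp only [Set.mem_insert_iff, Set.mem_singleton_iff] at hx
    rcases hx with rfl | rfl | rfl
    · exact ha
    · exact hb
    · exact hc
  have m1 : proj v P1 ∈ ({proj v P1, proj v P2, proj v P3, proj v P4} : Set E3) := by simp
  have m2 : proj v P2 ∈ ({proj v P1, proj v P2, proj v P3, proj v P4} : Set E3) := by simp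
  have m3 : proj v P3 ∈ ({proj v P1, proj v P2, proj v P3, proj v P4} : Set E3) := by simp
  have m4 : proj v P4 ∈ ({proj v P1, proj v P2, proj v P3, proj v P4} : Set E3) := by simp
  have f123 : ENNReal.ofReal (|Real.sqrt 2 * v 1 - v 2|) ≤ μHE[2] Q := by
    have h := proj_tri htri v P1 P2 P3 hv
    have hd : |det3 v (P2 - P1) (P3 - P1)| / 2 = |Real.sqrt 2 * v 1 - v 2| := by
      have : det3 v (P2 - P1) (P3 - P1) = 2 * (Real.sqrt 2 * v 1 - v 2) := by
        simp [det3, hP1, hP2, hP3]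
        ring
      rw [this, abs_mul]
      simp
    rw [hd] at h
    rw [← h]
    exact sub3 _ _ _ m1 m2 m3
  have f124 : ENNReal.ofReal (|Real.sqrt 2 * v 1 + v 2|) ≤ μHE[2] Q := by
    have h := proj_tri htri v P1 P2 P4 hv
    have hd : |det3 v (P2 - P1) (P4 - P1)| / 2 = |Real.sqrt 2 * v 1 + v 2| := by
      have : det3 v (P2 - P1) (P4 - P1) = 2 * (Real.sqrt 2 * v 1 + v 2) := by
        simp [det3, hP1, hP2, hP4]
        ring
      rw [this, abs_mul]
      simp
    rw [hd] at h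
    rw [← h]
    exact sub3 _ _ _ m1 m2 m4
  have f134 : ENNReal.ofReal (|Real.sqrt 2 * v 0 + v 2|) ≤ μHE[2] Q := by
    have h := proj_tri htri v P1 P3 P4 hv
    have hd : |det3 v (P3 - P1) (P4 - P1)| / 2 = |Real.sqrt 2 * v 0 + v 2| := by
      have : det3 v (P3 - P1) (P4 - P1) = 2 * (Real.sqrt 2 * v 0 + v 2) := by
        simp [det3, hP1, hP3, hP4]
        ring
      rw [this, abs_mul]
      simp
    rw [hd] at h
    rw [← h]
    exact sub3 _ _ _ m1 m3 m4
  have f234 : ENNReal.ofReal (|Real.sqrt 2 * v 0 - v 2|) ≤ μHE[2] Q := by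
    have h := proj_tri htri v P2 P3 P4 hv
    have hd : |det3 v (P3 - P2) (P4 - P2)| / 2 = |Real.sqrt 2 * v 0 - v 2| := by
      have : det3 v (P3 - P2) (P4 - P2) = 2 * (Real.sqrt 2 * v 0 - v 2) := by
        simp [det3, hP2, hP3, hP4]
        ring
      rw [this, abs_mul]
      simp
    rw [hd] at h
    rw [← h]
    exact sub3 _ _ _ m2 m3 m4
  -- the three pairs of opposite edges
  have q12 : ENNReal.ofReal (2 * |v 2|) ≤ μHE[2] Q := by
    have h := proj_quad htri v P1 P2 P3 P4 hv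
    have hd : |det3 v (P2 - P1) (P4 - P3)| / 2 = 2 * |v 2| := by
      have : det3 v (P2 - P1) (P4 - P3) = 4 * v 2 := by
        simp [det3, hP1, hP2, hP3, hP4]
        ring
      rw [this, abs_mul]
      simp
      ring
    rw [hd] at h
    exact h
  have q13 : ENNReal.ofReal (Real.sqrt 2 * |v 0 + v 1|) ≤ μHE[2] Q := by
    have h := proj_quad htri v P1 P3 P2 P4 hv
    have hd : |det3 v (P3 - P1) (P4 - P2)| / 2 = Real.sqrt 2 * |v 0 + v 1| := by
      have : det3 v (P3 - P1) (P4 - P2) = 2 * (Real.sqrt 2 * (v 0 + v 1)) := by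
        simp [det3, hP1, hP2, hP3, hP4]
        ring
      rw [this, abs_mul, abs_mul, abs_of_pos hs0]
      simp
    rw [hd] at h
    have hset : ({proj v P1, proj v P3, proj v P2, proj v P4} : Set E3) =
        {proj v P1, proj v P2, proj v P3, proj v P4} := by
      ext x
      simp only [Set.mem_insert_iff, Set.mem_singleton_iff]
      tauto
    rw [hset] at h
    exact h
  have q14 : ENNReal.ofReal (Real.sqrt 2 * |v 1 - v 0|) ≤ μHE[2] Q := by
    have h := proj_quad htri v P1 P4 P2 P3 hv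
    have hd : |det3 v (P4 - P1) (P3 - P2)| / 2 = Real.sqrt 2 * |v 1 - v 0| := by
      have : det3 v (P4 - P1) (P3 - P2) = 2 * (Real.sqrt 2 * (v 1 - v 0)) := by
        simp [det3, hP1, hP2, hP3, hP4]
        ring
      rw [this, abs_mul, abs_mul, abs_of_pos hs0]
      simp
    rw [hd] at h
    have hset : ({proj v P1, proj v P4, proj v P2, proj v P3} : Set E3) =
        {proj v P1, proj v P2, proj v P3, proj v P4} := by
      ext x
      simp only [Set.mem_insert_iff, Set.mem_singleton_iff]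
      tauto
    rw [hset] at h
    exact h
  -- conclusion
  by_cases htop : μHE[2] Q = ⊤
  · rw [htop]
    exact le_top
  rw [ENNReal.ofReal_le_iff_le_toReal htop] at f123 f124 f134 f234 q12 q13 q14 ⊢
  set m := (μHE[2] Q).toReal with hm
  have hm0 : 0 ≤ m := ENNReal.toReal_nonneg
  apply Real.sqrt_le_iff.mpr ⟨hm0, ?_⟩
  have hinv : 2 / Real.sqrt 2 = Real.sqrt 2 := by
    field_simp
    linarith
  apply core_ineq ((v 0 + v 1) / Real.sqrt 2) ((v 1 - v 0) / Real.sqrt 2) (v 2) m
  · field_simp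
    nlinarith
  · rw [abs_div, abs_of_pos hs0]
    calc 2 * (|v 0 + v 1| / Real.sqrt 2) = (2 / Real.sqrt 2) * |v 0 + v 1| := by ring
      _ = Real.sqrt 2 * |v 0 + v 1| := by rw [hinv]
      _ ≤ m := q13
  · rw [abs_div, abs_of_pos hs0]
    calc 2 * (|v 1 - v 0| / Real.sqrt 2) = (2 / Real.sqrt 2) * |v 1 - v 0| := by ring
      _ = Real.sqrt 2 * |v 1 - v 0| := by rw [hinv]
      _ ≤ m := q14
  · exact q12
  · have : (v 0 + v 1) / Real.sqrt 2 + (v 1 - v 0) / Real.sqrt 2 + v 2 = Real.sqrt 2 * v 1 + v 2 := by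
      have e : (v 0 + v 1) / Real.sqrt 2 + (v 1 - v 0) / Real.sqrt 2 + v 2 =
          (2 / Real.sqrt 2) * v 1 + v 2 := by ring
      rw [e, hinv]
    rw [this]
    exact f124
  · have : (v 0 + v 1) / Real.sqrt 2 + (v 1 - v 0) / Real.sqrt 2 - v 2 = Real.sqrt 2 * v 1 - v 2 := by
      have e : (v 0 + v 1) / Real.sqrt 2 + (v 1 - v 0) / Real.sqrt 2 - v 2 =
          (2 / Real.sqrt 2) * v 1 - v 2 := by ring
      rw [e, hinv]
    rw [this]
    exact f123
  · have : (v 0 + v 1) / Real.sqrt 2 - (v 1 - v 0) / Real.sqrt 2 + v 2 = Real.sqrt 2 * v 0 + v 2 := by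
      have e : (v 0 + v 1) / Real.sqrt 2 - (v 1 - v 0) / Real.sqrt 2 + v 2 =
          (2 / Real.sqrt 2) * v 0 + v 2 := by ring
      rw [e, hinv]
    rw [this]
    exact f134
  · have : (v 0 + v 1) / Real.sqrt 2 - (v 1 - v 0) / Real.sqrt 2 - v 2 = Real.sqrt 2 * v 0 - v 2 := by
      have e : (v 0 + v 1) / Real.sqrt 2 - (v 1 - v 0) / Real.sqrt 2 - v 2 =
          (2 / Real.sqrt 2) * v 0 - v 2 := by ring
      rw [e, hinv]
    rw [this]
    exact f234

/-- Every projection of the standard tetrahedron has finite area. -/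
theorem proj_ne_top (v : E3) (hv : ‖v‖ = 1) :
    μHE[2] ((fun y : E3 => y - inner ℝ y v • v) ''
      convexHull ℝ {!₂[1, 0, 0], !₂[-1, 0, 0], !₂[0, 1, Real.sqrt 2], !₂[0, -1, Real.sqrt 2]}) ≠ ⊤ := by
  apply ne_of_lt
  apply plane_bounded_lt_top v hv
  · apply IsCompact.isBounded
    apply IsCompact.image (Set.Finite.isCompact_convexHull ℝ (Set.toFinite _))
    fun_prop
  · rintro x ⟨y, _, rfl⟩
    have := inner_proj_self v y hv
    rwa [proj_apply] at this

theorem sqrt_two_le_proj_toReal_of (htri : TriFormula) (v : E3) (hv : ‖v‖ = 1) :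
    Real.sqrt 2 ≤ (μHE[2] ((fun y : E3 => y - inner ℝ y v • v) ''
      convexHull ℝ {!₂[1, 0, 0], !₂[-1, 0, 0], !₂[0, 1, Real.sqrt 2], !₂[0, -1, Real.sqrt 2]})).toReal :=
  (ENNReal.ofReal_le_iff_le_toReal (proj_ne_top v hv)).mp (sqrt_two_le_proj_of htri v hv)

theorem norm_e1 : ‖(!₂[1, 0, 0] : E3)‖ = 1 := by
  rw [EuclideanSpace.norm_eq]
  simp [Fin.sum_univ_three]

/-- The projection along the first coordinate axis has area exactly `√2`. -/
theorem proj_e1_eq_of (htri : TriFormula) :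
    μHE[2] ((fun y : E3 => y - inner ℝ y (!₂[1, 0, 0] : E3) • (!₂[1, 0, 0] : E3)) ''
      convexHull ℝ {!₂[1, 0, 0], !₂[-1, 0, 0], !₂[0, 1, Real.sqrt 2], !₂[0, -1, Real.sqrt 2]}) = ENNReal.ofReal (Real.sqrt 2) := by
  rw [image_K0]
  have hv : ‖(!₂[1, 0, 0] : E3)‖ = 1 := norm_e1
  have h12 : proj (!₂[1, 0, 0] : E3) !₂[-1, 0, 0] = proj (!₂[1, 0, 0] : E3) !₂[1, 0, 0] := by
    have hin1 : inner ℝ (!₂[-1, 0, 0] : E3) (!₂[1, 0, 0] : E3) = -1 := by
      rw [PiLp.inner_apply, Fin.sum_univ_three]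
      simp
    have hin2 : inner ℝ (!₂[1, 0, 0] : E3) (!₂[1, 0, 0] : E3) = 1 := by
      rw [PiLp.inner_apply, Fin.sum_univ_three]
      simp
    rw [proj_apply, proj_apply, hin1, hin2]
    ext i
    fin_cases i <;> simp
  rw [h12, Set.insert_eq_of_mem (Set.mem_insert _ _), proj_tri htri _ _ _ _ hv]
  have hd : det3 (!₂[1, 0, 0] : E3) (!₂[0, 1, Real.sqrt 2] - !₂[1, 0, 0])
      (!₂[0, -1, Real.sqrt 2] - !₂[1, 0, 0]) = 2 * Real.sqrt 2 := by
    simp [det3]
    ring
  rw [hd, abs_of_pos (by positivity)]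
  congr 1
  ring

/-- `μHE[2]` and `μH[2]` differ by a positive finite factor (in real terms). -/
theorem exists_scale : ∃ c : ℝ, 0 < c ∧ ∀ s : Set E3,
    (μHE[2] s).toReal = c * (μH[(2 : ℝ)] s).toReal := by
  refine ⟨((Measure.addHaarScalarFactor (volume : Measure (EuclideanSpace ℝ (Fin 2)))
    μH[((2 : ℕ) : ℝ)] : NNReal) : ℝ), ?_, ?_⟩
  · have h := Measure.addHaarScalarFactor_volume_hausdorffMeasure_ne_zero 2
    exact lt_of_le_of_ne (NNReal.coe_nonneg _) (fun h' => h (NNReal.coe_eq_zero.mp h'.symm))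
  · intro s
    rw [Measure.euclideanHausdorffMeasure_def, Measure.smul_apply, ENNReal.smul_def, smul_eq_mul,
      ENNReal.toReal_mul, ENNReal.coe_toReal]
    norm_num

/-- The last conjunct of `S0324` (stated with `μH[2]`) from a `μHE[2]` area bound on the bases. -/
theorem hausdorff_margin_of (htri : TriFormula) (m : ℕ) (p q r : Fin m → E3) (δ' : ℝ)
    (hδ' : 0 < δ')
    (h : ∑ i, (μHE[2] (convexHull ℝ {p i, q i, r i})).toReal + δ' ≤ Real.sqrt 2 / 2) :
    ∃ δ : ℝ, 0 < δ ∧ ∀ v : E3, ‖v‖ = 1 →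
      ∑ i, (μH[(2 : ℝ)] (convexHull ℝ {p i, q i, r i})).toReal + δ ≤
        (μH[(2 : ℝ)] ((fun y => y - inner ℝ y v • v) ''
          convexHull ℝ {!₂[1, 0, 0], !₂[-1, 0, 0], !₂[0, 1, Real.sqrt 2], !₂[0, -1, Real.sqrt 2]})).toReal / 2 := by
  obtain ⟨c, hc, hsc⟩ := exists_scale
  refine ⟨δ' / c, div_pos hδ' hc, fun v hv => ?_⟩
  have h1 := sqrt_two_le_proj_toReal_of htri v hv
  rw [hsc] at h1
  have h2 : ∑ i, (μHE[2] (convexHull ℝ {p i, q i, r i})).toReal =
      c * ∑ i, (μH[(2 : ℝ)] (convexHull ℝ {p i, q i, r i})).toReal := by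
    rw [Finset.mul_sum]
    exact Finset.sum_congr rfl (fun i _ => hsc _)
  rw [h2] at h
  have h3 : c * (∑ i, (μH[(2 : ℝ)] (convexHull ℝ {p i, q i, r i})).toReal + δ' / c) ≤
      c * ((μH[(2 : ℝ)] ((fun y => y - inner ℝ y v • v) ''
        convexHull ℝ {!₂[1, 0, 0], !₂[-1, 0, 0], !₂[0, 1, Real.sqrt 2], !₂[0, -1, Real.sqrt 2]})).toReal / 2) := by
    have : c * (δ' / c) = δ' := by field_simp
    nlinarith
  exact le_of_mul_le_mul_left h3 hc

/-! ### Final, hypothesis-free versions (area kit: `Crest.Agent.Helper10.area_triangle`) -/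

theorem triFormula : TriFormula := fun p q r => Crest.Agent.Helper10.area_triangle p q r

/-- Area of a projected triangle (`proj v y = y - ⟪y, v⟫ v`). -/
theorem proj_tri' (v A B C : E3) (hv : ‖v‖ = 1) :
    μHE[2] (convexHull ℝ {proj v A, proj v B, proj v C}) =
      ENNReal.ofReal (|det3 v (B - A) (C - A)| / 2) :=
  proj_tri triFormula v A B C hv

/-- Every orthogonal projection of the standard tetrahedron has area at least `√2`
(first half of part (1) of `S0325`, verbatim). -/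
theorem sqrt_two_le_proj (v : E3) (hv : ‖v‖ = 1) :
    ENNReal.ofReal (Real.sqrt 2) ≤ μHE[2] ((fun y : E3 => y - inner ℝ y v • v) ''
      convexHull ℝ {!₂[1, 0, 0], !₂[-1, 0, 0], !₂[0, 1, Real.sqrt 2], !₂[0, -1, Real.sqrt 2]}) :=
  sqrt_two_le_proj_of triFormula v hv

theorem sqrt_two_le_proj_toReal (v : E3) (hv : ‖v‖ = 1) :
    Real.sqrt 2 ≤ (μHE[2] ((fun y : E3 => y - inner ℝ y v • v) ''
      convexHull ℝ {!₂[1, 0, 0], !₂[-1, 0, 0], !₂[0, 1, Real.sqrt 2], !₂[0, -1, Real.sqrt 2]})).toReal :=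
  sqrt_two_le_proj_toReal_of triFormula v hv

/-- The projection along the first coordinate axis has area exactly `√2`. -/
theorem proj_e1_eq :
    μHE[2] ((fun y : E3 => y - inner ℝ y (!₂[1, 0, 0] : E3) • (!₂[1, 0, 0] : E3)) ''
      convexHull ℝ {!₂[1, 0, 0], !₂[-1, 0, 0], !₂[0, 1, Real.sqrt 2], !₂[0, -1, Real.sqrt 2]}) = ENNReal.ofReal (Real.sqrt 2) :=
  proj_e1_eq_of triFormula

/-- Part (1) of `S0325`, verbatim. -/
theorem s0325_part1 :
    (∀ v : EuclideanSpace ℝ (Fin 3), ‖v‖ = 1 →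
        ENNReal.ofReal (Real.sqrt 2) ≤ μHE[2] ((fun y => y - inner ℝ y v • v) ''
          convexHull ℝ {!₂[1, 0, 0], !₂[-1, 0, 0], !₂[0, 1, Real.sqrt 2], !₂[0, -1, Real.sqrt 2]})) ∧
      ∃ v : EuclideanSpace ℝ (Fin 3), ‖v‖ = 1 ∧
        μHE[2] ((fun y => y - inner ℝ y v • v) ''
          convexHull ℝ {!₂[1, 0, 0], !₂[-1, 0, 0], !₂[0, 1, Real.sqrt 2], !₂[0, -1, Real.sqrt 2]}) = ENNReal.ofReal (Real.sqrt 2) :=
  ⟨fun v hv => sqrt_two_le_proj v hv, !₂[1, 0, 0], norm_e1, proj_e1_eq⟩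

/-- The last conjunct of `S0324` (stated with `μH[2]`) from a `μHE[2]` area bound on the bases. -/
theorem hausdorff_margin (m : ℕ) (p q r : Fin m → E3) (δ' : ℝ) (hδ' : 0 < δ')
    (h : ∑ i, (μHE[2] (convexHull ℝ {p i, q i, r i})).toReal + δ' ≤ Real.sqrt 2 / 2) :
    ∃ δ : ℝ, 0 < δ ∧ ∀ v : E3, ‖v‖ = 1 →
      ∑ i, (μH[(2 : ℝ)] (convexHull ℝ {p i, q i, r i})).toReal + δ ≤
        (μH[(2 : ℝ)] ((fun y => y - inner ℝ y v • v) ''
          convexHull ℝ {!₂[1, 0, 0], !₂[-1, 0, 0], !₂[0, 1, Real.sqrt 2], !₂[0, -1, Real.sqrt 2]})).toReal / 2 :=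
  hausdorff_margin_of triFormula m p q r δ' hδ' h

end Crest.Agent.Helper3
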